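import Vale.Agent.P162.Main

namespace Vale.Agent.Results.P162.A_theta

open Vale.Agent.P162

/-- The mixing time of the Thorp shuffle on `n = 2^d` cards has order `d = log₂ n`. -/
theorem result :
    ∃ C d₀ : ℕ, ∀ d : ℕ, d₀ ≤ d →
      tvDist (2 ^ d) (tmix (2 ^ d)) ≤ 1 / 4 ∧ d ≤ tmix (2 ^ d) ∧ tmix (2 ^ d) ≤ C * d := by
  obtain ⟨C, d₀, h⟩ := main
  refine ⟨C, max d₀ 1, fun d hd => ?_⟩
  have h1 := h d (le_trans (le_max_left _ _) hd)
  have h2 : 1 ≤ d := le_trans (le_max_right _ _) hd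
  refine ⟨?_, h1⟩
  exact Nat.sInf_mem (Nat.nonempty_of_pos_sInf (lt_of_lt_of_le h2 h1.1))

end Vale.Agent.Results.P162.A_theta
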